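import Vale.Agent.P032.S5.H678.DEnds

/-!
# P032: D-star pairs, the directions of an end and of the centre are disjoint
-/

open Set Filter Topology Metric

noncomputable section

namespace Vale.Agent.P032.Six

variable {U : Fin 6 → Set ℂ} {T : ℂ → Set (Fin 6)}

namespace DP

variable {z y : ℂ} {A B : Set (Fin 6)}

/-- **(5)** -/
theorem disj920 (h : Irr U T) (P : DP T z y A B) {ξ : ℂ} (hξ : ‖ξ‖ = 1)
    (hcl : ξ ∈ closure (Dir T z)) (hn : ¬ T (z + ξ) ⊆ T z) {A' : Set (Fin 6)} {s x : Fin 6}
    (hs : s ∈ T z \ A) (hTv : T (z + ξ) = A ∪ {s, x}) (hv : Harm T (z + ξ) A') (hsA : s ∈ A')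
    (hA' : A' ⊆ insert s A) :
    Disjoint (Dir T (z + ξ)) (Dir T z) ∧ -ξ ∈ closure (Dir T (z + ξ)) ∧
      -ξ ∉ Dir T (z + ξ) := by
  have hneg : -ξ ∉ Dir T (z + ξ) := by
    intro hc
    have h1 : T z ⊆ T (z + ξ) := by
      have := hc.2
      rwa [add_neg_cancel_right] at this
    have h2 : T z = T (z + ξ) :=
      Set.eq_of_subset_of_ncard_le h1 (by rw [hv.card, P.hz.card]) (Set.toFinite _)
    exact hn h2.ge
  refine ⟨?_, ?_, hneg⟩
  · -- a common colour
    obtain ⟨τ, hτA', hτs⟩ : ∃ τ ∈ A', τ ≠ s := by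
      have h1 : 1 < A'.ncard := by rw [hv.cardA]; norm_num
      obtain ⟨a, ha, b, hb, hab⟩ := (Set.one_lt_ncard (Set.toFinite _)).1 h1
      by_cases e : a = s
      · exact ⟨b, hb, fun e' => hab (e.trans e'.symm)⟩
      · exact ⟨a, ha, e⟩
    have hτA : τ ∈ A := by
      rcases hA' hτA' with h1 | h1
      · exact absurd h1 hτs
      · exact h1
    rw [Set.disjoint_left]
    intro η hη hη'
    have n1 : η ≠ ξ := fun e => hn (e ▸ hη').2
    have n2 : η ≠ -ξ := fun e => hneg (e ▸ hη)
    have hτ : τ ∈ T (z + ξ + η) := sub_dir hv hη hτA'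
    have hJ : ∀ᶠ q in 𝓝[sphere z 1] (z + η), τ ∈ Pal U q := by
      filter_upwards [mem_nhdsWithin_of_mem_nhds (h.nhd (z + η)), self_mem_nhdsWithin]
        with q g1 g2
      exact h.sub q (P.hz.h1 q g2 (g1.trans hη'.2) hτA)
    rcases h.mx.partner_line (u := z) (p := z + η) (v := z + ξ + η) (t := τ) (d_add hη.1) hJ (by
        rw [dist_eq_norm, show z + η - (z + ξ + η) = -ξ by ring, norm_neg, hξ])
        (h.sub _ hτ) with h1 | h1
    · apply n2
      linear_combination h1
    · apply n1
      linear_combination -h1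
  · rw [mem_closure_iff_frequently]
    by_contra hcon
    rw [not_frequently] at hcon
    obtain ⟨ax1, ax2⟩ := P.not_axis h
    -- the other colour of `C`
    have hC2 : (T z \ A).ncard = 2 := by
      rw [Set.ncard_sdiff P.hz.sub (Set.toFinite _), P.hz.card, P.hz.cardA]
    obtain ⟨m, hm, hms⟩ : ∃ m ∈ T z \ A, m ≠ s := by
      have h1 : 1 < (T z \ A).ncard := by rw [hC2]; norm_num
      obtain ⟨a, ha, b, hb, hab⟩ := (Set.one_lt_ncard (Set.toFinite _)).1 h1
      by_cases e : a = s
      · exact ⟨b, hb, fun e' => hab (e.trans e'.symm)⟩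
      · exact ⟨a, ha, e⟩
    have hCm : T z \ A ⊆ {s, m} := by
      have h2 : ({s, m} : Set (Fin 6)) ⊆ T z \ A := by
        rintro i (rfl | rfl)
        · exact hs
        · exact hm
      have h3 : ({s, m} : Set (Fin 6)) = T z \ A :=
        Set.eq_of_subset_of_ncard_le h2 (by rw [hC2, Set.ncard_pair hms.symm]) (Set.toFinite _)
      rw [h3]
    have hzu : dist z (z + ξ) = 1 := by rw [dist_comm]; exact d_add hξ
    have ht : Tendsto (fun q : ℂ => q - (z + ξ)) (𝓝 z) (𝓝 (-ξ)) := by
      have h1 : Continuous fun q : ℂ => q - (z + ξ) := by fun_prop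
      have h2 := h1.tendsto z
      rwa [show z - (z + ξ) = -ξ by ring] at h2
    have hJ : ∀ᶠ q in 𝓝[sphere (z + ξ) 1] z, m ∈ Pal U q := by
      filter_upwards [mem_nhdsWithin_of_mem_nhds (h.nhd z), self_mem_nhdsWithin,
        mem_nhdsWithin_of_mem_nhds (ht.eventually hcon)] with q g1 g2 g3
      refine h.sub q ?_
      by_contra hmq
      apply g3
      refine ⟨?_, ?_⟩
      · rw [← dist_eq_norm]; exact g2
      · rw [add_sub_cancel, hTv]
        intro i hi
        have hiz := g1 hi
        by_cases hiA : i ∈ A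
        · exact Or.inl hiA
        · rcases hCm ⟨hiz, hiA⟩ with e | e
          · right; left; exact e
          · exact absurd (e ▸ hi) hmq
    have hmy : m ∈ T y := by
      have h1 : m ∈ T y \ B := by rw [← P.hC]; exact hm
      exact h1.1
    rcases h.mx.partner_line (u := z + ξ) (p := z) (v := y) (t := m) hzu hJ P.d
        (h.sub y hmy) with h1 | h1
    · apply ax2
      rw [h1, add_sub_cancel_left]; exact hcl
    · apply ax1
      have : z - y = ξ := by linear_combination -h1
      rw [this]; exact hcl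

end DP

end Vale.Agent.P032.Six
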