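import Vale.Agent.P032.S5.H920.Final
import Vale.Agent.P032.S5.H920.Disj
import Vale.Agent.P032.S5.H306.Repro
import Vale.Agent.P032.S5.H25.Corner
import Vale.Agent.P032.S5.H843.Core7

/-!
# P032: no D-star pair
-/

open Set Filter Topology Metric

noncomputable section

namespace Vale.Agent.P032.Six

variable {U : Fin 6 → Set ℂ} {T : ℂ → Set (Fin 6)}

theorem H920.loc (F : Fr U T) : H920.Loc T where
  dir_eq P := P.dir_eq F.irr
  not_axis P := P.not_axis F.irr
  ends P _ hξ hcl hn := P.ends F hξ hcl hn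
  corner P _ hwz hwy := P.corner25 F hwz hwy
  repro P _ hξ hne hne' _ _ _ _ _ _ hs hx hTv hv hsA hA' hs' ht hTw hw hsB hB' :=
    P.repro F hξ hne hne' hs hx hTv hv hsA hA' hs' ht hTw hw hsB hB'
  disj P _ hξ hcl hn _ _ _ hs hTv hv hsA hA' := P.disj920 F.irr hξ hcl hn hs hTv hv hsA hA'

/-- **there is no D-star pair** -/
theorem DP.false (F : Fr U T) {z y : ℂ} {A B : Set (Fin 6)} (P : DP T z y A B) : False :=
  H920.false_of_loc F (H920.loc F) P

/-- **no D-star pair**, in the form of the assembly -/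
theorem Fr.noStar (F : Fr U T) : NoStar T := fun z A z' A' h h' d =>
  H920.noStar_of_loc F (H920.loc F) z A z' A' h h' d

/-- **`hS` of the assembly** -/
theorem Irr.noStar (h : Irr U T) (hmin : Mn U T) (h4 : ∀ z, (T z).ncard ≤ 4) (hA : AllHarm T) :
    NoStar T :=
  Fr.noStar (U := U) ⟨h, fun z hz s hs hne => hmin z hz s hs hne, h4, fun x hx => hA x hx.ge⟩

end Vale.Agent.P032.Six
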