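import Vale.Agent.P032.S5.H306.Defs

/-!
# P032: D-star pairs, the two arcs (topological part)
-/

open Set Filter Topology Metric

noncomputable section

namespace Vale.Agent.P032.Six

variable {U : Fin 6 → Set ℂ} {T : ℂ → Set (Fin 6)}

namespace H920

/-- two open sets of an interval, without boundary points in the hull of their union -/
theorem two_arcs {b c δ : ℝ} {Hp Hm : Set ℝ} (hop : IsOpen Hp) (hom : IsOpen Hm) (h0 : 0 < δ)
    (hl : ∀ f ∈ Hp ∪ Hm, b + δ ≤ f ∧ f ≤ c - δ) (hnp : Hp.Nonempty) (hnm : Hm.Nonempty)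
    (hull : ∀ f1 f0 f2, f1 < f0 → f0 < f2 → f1 ∈ Hp ∪ Hm → f2 ∈ Hp ∪ Hm →
      (f0 ∈ closure Hp → f0 ∈ Hp) ∧ (f0 ∈ closure Hm → f0 ∈ Hm)) :
    ∃ al be, b < al ∧ al < be ∧ be < c ∧ Hp = Ioo al be ∧ Hm = Ioo al be := by
  set L := Hp ∪ Hm with hL
  have hLo : IsOpen L := hop.union hom
  have hLn : L.Nonempty := hnp.mono subset_union_left
  have hbb : BddBelow L := ⟨b + δ, fun f hf => (hl f hf).1⟩
  have hba : BddAbove L := ⟨c - δ, fun f hf => (hl f hf).2⟩
  have hsub : L ⊆ Ioo (sInf L) (sSup L) := by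
    intro f hf
    obtain ⟨ε, hε, hball⟩ := Metric.isOpen_iff.1 hLo f hf
    have m1 : f - ε / 2 ∈ L := hball (by
      rw [Metric.mem_ball, Real.dist_eq, show f - ε / 2 - f = -(ε / 2) by ring, abs_neg,
        abs_of_pos (by linarith)]; linarith)
    have m2 : f + ε / 2 ∈ L := hball (by
      rw [Metric.mem_ball, Real.dist_eq, show f + ε / 2 - f = ε / 2 by ring,
        abs_of_pos (by linarith)]; linarith)
    have := csInf_le hbb m1
    have := le_csSup hba m2
    exact ⟨by linarith, by linarith⟩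
  have key : ∀ H : Set ℝ, IsOpen H → H ⊆ L → H.Nonempty →
      (∀ f1 f0 f2, f1 < f0 → f0 < f2 → f1 ∈ L → f2 ∈ L → f0 ∈ closure H → f0 ∈ H) →
      H = Ioo (sInf L) (sSup L) := by
    intro H hH hHL hHn hcl
    refine Subset.antisymm (hHL.trans hsub) ?_
    obtain ⟨x, hx⟩ := hHn
    refine isPreconnected_Ioo.subset_of_closure_inter_subset hH ⟨x, hsub (hHL hx), hx⟩ ?_
    rintro f ⟨hf, hf'⟩
    obtain ⟨f1, hf1, hf1'⟩ := exists_lt_of_csInf_lt hLn hf'.1
    obtain ⟨f2, hf2, hf2'⟩ := exists_lt_of_lt_csSup hLn hf'.2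
    exact hcl f1 f f2 hf1' hf2' hf1 hf2 hf
  obtain ⟨x, hx⟩ := hLn
  have h1 := hsub hx
  refine ⟨sInf L, sSup L, ?_, h1.1.trans h1.2, ?_, key Hp hop subset_union_left hnp
    fun f1 f0 f2 a1 a2 a3 a4 => (hull f1 f0 f2 a1 a2 a3 a4).1, key Hm hom subset_union_right hnm
    fun f1 f0 f2 a1 a2 a3 a4 => (hull f1 f0 f2 a1 a2 a3 a4).2⟩
  · have : b + δ ≤ sInf L := le_csInf ⟨x, hx⟩ fun f hf => (hl f hf).1
    linarith
  · have : sSup L ≤ c - δ := csSup_le ⟨x, hx⟩ fun f hf => (hl f hf).2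
    linarith

theorem cis_add_pi (t : ℝ) : cis (t + Real.pi) = -cis t := by
  unfold cis
  push_cast
  rw [add_mul, Complex.exp_add, Complex.exp_pi_mul_I]
  ring

/-- lifting of the closure to the angles -/
theorem closure_cis {D : Set ℂ} {u : ℂ} (hu : ‖u‖ = 1) (hD : ∀ ξ ∈ D, ‖ξ‖ = 1) {f0 : ℝ}
    (h : u * cis f0 ∈ closure D) : f0 ∈ closure {f : ℝ | u * cis f ∈ D} := by
  set w := u * cis f0 with hw
  have hw1 : ‖w‖ = 1 := by rw [hw, norm_mul, hu, norm_cis, one_mul]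
  have hw0 : w ≠ 0 := by intro h0; rw [h0] at hw1; simp at hw1
  set g : ℂ → ℝ := fun ξ => f0 + (ξ / w).arg with hg
  have hgc : ContinuousAt g w := by
    have h1 : ContinuousAt (fun ξ : ℂ => ξ / w) w := by fun_prop
    have h2 : ContinuousAt Complex.arg (w / w) := by
      rw [div_self hw0]
      exact Complex.continuousAt_arg Complex.one_mem_slitPlane
    exact continuousAt_const.add (ContinuousAt.comp (g := Complex.arg) h2 h1)
  have hg0 : g w = f0 := by simp [hg, div_self hw0]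
  have hgs : ∀ ξ ∈ D, u * cis (g ξ) = ξ := by
    intro ξ hξ
    have h1 : ‖ξ / w‖ = 1 := by rw [norm_div, hD ξ hξ, hw1, div_one]
    have h2 := Complex.norm_mul_exp_arg_mul_I (ξ / w)
    rw [h1] at h2
    simp only [Complex.ofReal_one, one_mul] at h2
    have h3 : cis (g ξ) = cis f0 * (ξ / w) := by
      rw [← h2]
      simp only [hg, cis]
      push_cast
      rw [add_mul, Complex.exp_add]
    rw [h3, ← mul_assoc, ← hw]
    field_simp
  rw [mem_closure_iff_frequently] at h ⊢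
  have h1 : ∃ᶠ ξ in 𝓝 w, u * cis (g ξ) ∈ D := h.mono fun ξ hξ => by rw [hgs ξ hξ]; exact hξ
  have h2 : Tendsto g (𝓝 w) (𝓝 f0) := by
    have := hgc.tendsto
    rwa [hg0] at this
  exact h2.frequently h1

theorem isOpen_sub (h : Irr U T) (S : Set (Fin 6)) : IsOpen {x | T x ⊆ S} := by
  have : {x | T x ⊆ S} = ⋂ i ∈ Sᶜ, {x | i ∈ T x}ᶜ := by
    ext x
    simp only [mem_setOf_eq, mem_iInter, mem_compl_iff]
    exact ⟨fun hx i hi hi' => hi (hx hi'), fun hx i hi => by_contra fun h' => hx i h' hi⟩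
  rw [this]
  exact (Set.toFinite _).isOpen_biInter fun i _ => (h.closed i).isOpen_compl

end H920

end Vale.Agent.P032.Six
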