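import Vale.Agent.P032.S5.H306.Defs
import Vale.Agent.P032.S5.H913.Hull
import Vale.Agent.P032.S5.H913.DEnd
import Vale.Agent.P032.S5.H920.Arcs

/-!
# P032: no D-star pair (glue)
-/

open Set Filter Topology Metric

noncomputable section

namespace Vale.Agent.P032.Six

variable {U : Fin 6 → Set ℂ} {T : ℂ → Set (Fin 6)}

namespace H920

/-- the local facts at a D-star pair -/
structure Loc (T : ℂ → Set (Fin 6)) : Prop where
  dir_eq : ∀ {z y : ℂ} {A B : Set (Fin 6)}, DP T z y A B → Dir T z = Dir T y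
  not_axis : ∀ {z y : ℂ} {A B : Set (Fin 6)}, DP T z y A B →
    z - y ∉ closure (Dir T z) ∧ y - z ∉ closure (Dir T z)
  ends : ∀ {z y : ℂ} {A B : Set (Fin 6)}, DP T z y A B → ∀ {ξ : ℂ}, ‖ξ‖ = 1 →
    ξ ∈ closure (Dir T z) → ¬ T (z + ξ) ⊆ T z → ∃ s ∈ T z \ A, ∃ x ∈ B,
      T (z + ξ) = A ∪ {s, x} ∧ ∃ A', Harm T (z + ξ) A' ∧ s ∈ A' ∧ A' ⊆ insert s A
  corner : ∀ {z y : ℂ} {A B : Set (Fin 6)}, DP T z y A B → ∀ {w : ℂ}, dist w z = 1 →
    dist w y = 1 → w - z ∈ closure (Dir T z) ∨ w - y ∈ closure (Dir T z)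
  repro : ∀ {z y : ℂ} {A B : Set (Fin 6)}, DP T z y A B → ∀ {ξ : ℂ}, ‖ξ‖ = 1 →
    ξ ≠ z - y → ξ ≠ y - z → ∀ {s x s' t : Fin 6} {A' B' : Set (Fin 6)}, s ∈ T z \ A → x ∈ B →
    T (z + ξ) = A ∪ {s, x} → Harm T (z + ξ) A' → s ∈ A' → A' ⊆ insert s A →
    s' ∈ T y \ B → t ∈ A → T (y + ξ) = B ∪ {s', t} → Harm T (y + ξ) B' → s' ∈ B' →
    B' ⊆ insert s' B → DP T (z + ξ) (y + ξ) A' B'
  disj : ∀ {z y : ℂ} {A B : Set (Fin 6)}, DP T z y A B → ∀ {ξ : ℂ}, ‖ξ‖ = 1 →
    ξ ∈ closure (Dir T z) → ¬ T (z + ξ) ⊆ T z → ∀ {s x : Fin 6} {A' : Set (Fin 6)},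
    s ∈ T z \ A → T (z + ξ) = A ∪ {s, x} → Harm T (z + ξ) A' → s ∈ A' → A' ⊆ insert s A →
    Disjoint (Dir T (z + ξ)) (Dir T z) ∧ -ξ ∈ closure (Dir T (z + ξ)) ∧ -ξ ∉ Dir T (z + ξ)

theorem mem_DO_iff {n z : ℂ} (hn : ‖n‖ = 1) {t : ℝ} :
    t ∈ DO T n z ↔ Complex.I * n * cis t ∈ Dir T z :=
  ⟨fun h => ⟨norm_In hn t, h⟩, fun h => h.2⟩

/-- closures, upwards -/
theorem cl_Dir {n z : ℂ} (hn : ‖n‖ = 1) {t : ℝ} (h : t ∈ closure (DO T n z)) :
    Complex.I * n * cis t ∈ closure (Dir T z) :=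
  map_mem_closure (f := fun t : ℝ => Complex.I * n * cis t)
    (continuous_const.mul continuous_cis) h fun s hs => (mem_DO_iff hn).1 hs

/-- closures, downwards -/
theorem cl_DO {n z : ℂ} (hn : ‖n‖ = 1) {t : ℝ}
    (h : Complex.I * n * cis t ∈ closure (Dir T z)) : t ∈ closure (DO T n z) := by
  have h1 := closure_cis (u := Complex.I * n) (by rw [norm_mul, hn]; norm_num)
    (fun ξ hξ => hξ.1) h
  exact closure_mono (fun s hs => (mem_DO_iff hn).2 hs) h1

theorem cis_pi_div_two : cis (Real.pi / 2) = Complex.I := by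
  unfold cis; push_cast; exact Complex.exp_pi_div_two_mul_I

theorem cis_neg_pi_div_two : cis (-(Real.pi / 2)) = -Complex.I := by
  have h := cis_add_pi (-(Real.pi / 2))
  rw [show -(Real.pi / 2) + Real.pi = Real.pi / 2 by ring, cis_pi_div_two] at h
  rw [h, neg_neg]

theorem cis_six : cis (Real.pi / 6) = (Real.sqrt 3 / 2 : ℝ) + (1 / 2 : ℝ) * Complex.I := by
  apply Complex.ext
  · simp [cis, Complex.exp_ofReal_mul_I_re, -Complex.ofReal_div, Real.cos_pi_div_six]
  · simp [cis, Complex.exp_ofReal_mul_I_im, -Complex.ofReal_div, Real.sin_pi_div_six]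

theorem cis_neg_six : cis (-(Real.pi / 6)) = (Real.sqrt 3 / 2 : ℝ) - (1 / 2 : ℝ) * Complex.I := by
  apply Complex.ext
  · simp only [cis, Complex.exp_ofReal_mul_I_re, Real.cos_neg, Real.cos_pi_div_six]
    simp
  · simp only [cis, Complex.exp_ofReal_mul_I_im, Real.sin_neg, Real.sin_pi_div_six]
    simp

/-- `w - y` for `w = z + I n cis (-π/6)`, `y = z + n` -/
theorem corner1 (n z : ℂ) : z + Complex.I * n * cis (-(Real.pi / 6)) =
    z + n + Complex.I * n * cis (Real.pi / 6) := by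
  rw [cis_six, cis_neg_six]
  have : Complex.I * Complex.I = -1 := Complex.I_mul_I
  push_cast
  linear_combination (-n) * this

theorem corner2 (n z : ℂ) : z + Complex.I * n * cis (Real.pi / 6 + Real.pi) =
    z + n + Complex.I * n * cis (-(Real.pi / 6) + Real.pi) := by
  rw [cis_add_pi, cis_add_pi, cis_six, cis_neg_six]
  have : Complex.I * Complex.I = -1 := Complex.I_mul_I
  push_cast
  linear_combination (-n) * this

variable {z y : ℂ} {A B : Set (Fin 6)}

/-- **no D-star pair**, from the local facts -/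
theorem false_of_loc (F : Fr U T) (L : Loc T) (P : DP T z y A B) : False := by
  have hpi := Real.pi_pos
  set n : ℂ := y - z with hn
  have hn1 : ‖n‖ = 1 := by rw [hn, ← dist_eq_norm, dist_comm]; exact P.d
  have hS : {x : ℂ | ∃ A B, DP T x (x + n) A B} = ∅ := by
    refine dstar_end _ (DO T n) (fun x _ => DO_open F.irr n x) ?_ ?_ ?_ ?_ ?_ ?_
    · rintro x ⟨A, B, Q⟩ h
      have h1 := cl_Dir hn1 h
      rw [cis_neg_pi_div_two] at h1
      refine (L.not_axis Q).2 ?_
      have e : Complex.I * n * -Complex.I = x + n - x := by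
        have : Complex.I * Complex.I = -1 := Complex.I_mul_I
        linear_combination (-n) * this
      rwa [e] at h1
    · rintro x ⟨A, B, Q⟩ h
      have h1 := cl_Dir hn1 h
      rw [cis_pi_div_two] at h1
      refine (L.not_axis Q).1 ?_
      have e : Complex.I * n * Complex.I = x - (x + n) := by
        have : Complex.I * Complex.I = -1 := Complex.I_mul_I
        linear_combination n * this
      rwa [e] at h1
    · rintro x ⟨A, B, Q⟩ b hb1 hb2 hb
      obtain ⟨β, hβ, hcl, hno⟩ : ∃ β, (β = b ∨ β = b + Real.pi) ∧ β ∈ closure (DO T n x) ∧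
          β ∉ DO T n x := by
        rcases hb with h | h
        · exact ⟨b, Or.inl rfl, h.1, h.2⟩
        · exact ⟨b + Real.pi, Or.inr rfl, h.1, h.2⟩
      obtain ⟨s, hs, x', hx', hT, -⟩ := L.ends Q (norm_In hn1 β) (cl_Dir hn1 hcl) hno
      exact Q.hz.hull_psi F.irr hn1 Q.hy Q.hC hb1 hb2 hβ hs (by rw [hT]; simp)
    · rintro x ⟨A, B, Q⟩
      rcases L.corner Q (w := x + Complex.I * n * cis (-(Real.pi / 6))) (dist_In hn1 x _) (by
        rw [corner1]; exact dist_In hn1 _ _) with h | h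
      · left
        rw [add_sub_cancel_left] at h
        exact cl_DO hn1 h
      · right
        rw [corner1, add_sub_cancel_left] at h
        exact cl_DO hn1 h
    · rintro x ⟨A, B, Q⟩
      rcases L.corner Q (w := x + Complex.I * n * cis (Real.pi / 6 + Real.pi))
        (dist_In hn1 x _) (by rw [corner2]; exact dist_In hn1 _ _) with h | h
      · right
        rw [add_sub_cancel_left] at h
        exact cl_DO hn1 h
      · left
        rw [corner2, add_sub_cancel_left] at h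
        exact cl_DO hn1 h
    · rintro x ⟨A, B, Q⟩ b hb1 hb2 hcl hno
      set ξ : ℂ := Complex.I * n * cis b with hξ
      have hξ1 : ‖ξ‖ = 1 := norm_In hn1 b
      have c1 : ξ ∈ closure (Dir T x) := cl_Dir hn1 hcl
      have c2 : ¬ T (x + ξ) ⊆ T x := hno
      obtain ⟨s, hs, x', hx', hT, A', hA', hsA, hAs⟩ := L.ends Q hξ1 c1 c2
      have e1 : Dir T x = Dir T (x + n) := L.dir_eq Q
      have c3 : ξ ∈ closure (Dir T (x + n)) := by rw [← e1]; exact c1
      have c4 : ¬ T (x + n + ξ) ⊆ T (x + n) := by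
        intro h
        have : ξ ∈ Dir T x := by rw [e1]; exact ⟨hξ1, h⟩
        exact c2 this.2
      obtain ⟨s', hs', t, ht, hT', B', hB', hsB, hBs⟩ := L.ends Q.symm hξ1 c3 c4
      have ne1 : ξ ≠ x - (x + n) := by
        intro h; rw [h] at c1; exact (L.not_axis Q).1 c1
      have ne2 : ξ ≠ x + n - x := by
        intro h; rw [h] at c1; exact (L.not_axis Q).2 c1
      have R := L.repro Q hξ1 ne1 ne2 hs hx' hT hA' hsA hAs hs' ht hT' hB' hsB hBs
      obtain ⟨d1, d2, d3⟩ := L.disj Q hξ1 c1 c2 hs hT hA' hsA hAs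
      have e2 : -ξ = Complex.I * n * cis (b + Real.pi) := by rw [cis_add_pi, hξ]; ring
      refine ⟨x + ξ, ⟨A', B', ?_⟩, ?_, ?_, ?_⟩
      · have e : x + ξ + n = x + n + ξ := by ring
        rw [e]; exact R
      · rw [Set.disjoint_left] at d1 ⊢
        intro t ht1 ht2
        exact d1 ((mem_DO_iff hn1).1 ht1) ((mem_DO_iff hn1).1 ht2)
      · rw [e2] at d2; exact cl_DO hn1 d2
      · rw [e2] at d3; exact fun h => d3 ((mem_DO_iff hn1).1 h)
  have : z ∈ {x : ℂ | ∃ A B, DP T x (x + n) A B} := ⟨A, B, by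
    have e : z + n = y := by rw [hn]; ring
    rw [e]; exact P⟩
  rw [hS] at this
  exact this

/-- the form used by the assembly -/
theorem noStar_of_loc (F : Fr U T) (L : Loc T) (z : ℂ) (A : Set (Fin 6)) (z' : ℂ)
    (A' : Set (Fin 6)) (h : Harm T z A) (h' : Harm T z' A') (d : dist z z' = 1) :
    T z \ A ≠ T z' \ A' := fun hC => false_of_loc F L (DP.of F.irr h h' d hC)

end H920

end Vale.Agent.P032.Six
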